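import Mathlib

/-!
# Definitions for problem P084 (Tingley's problem)
-/

namespace Vale.Agent.Lib.P084

open Metric

universe u v

/-- A map `f` between the unit spheres of two real normed spaces *extends linearly* if there is
a real-linear isometry `T` of `X` onto `Y` which agrees with `f` on the unit sphere of `X`. -/
def ExtendsLinearly {X : Type u} {Y : Type v} [NormedAddCommGroup X] [NormedSpace ℝ X]
    [NormedAddCommGroup Y] [NormedSpace ℝ Y] (f : sphere (0 : X) 1 → sphere (0 : Y) 1) : Prop :=
  ∃ T : X ≃ₗᵢ[ℝ] Y, ∀ x : sphere (0 : X) 1, T (x : X) = (f x : Y)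

/-- The Mazur-Ulam property of a real normed space `X`: for every real Banach space `Y`,
every surjective isometry from the unit sphere of `X` onto the unit sphere of `Y`
extends linearly. -/
def MazurUlamProperty (X : Type u) [NormedAddCommGroup X] [NormedSpace ℝ X] : Prop :=
  ∀ (Y : Type v) [NormedAddCommGroup Y] [NormedSpace ℝ Y] [CompleteSpace Y]
    (f : sphere (0 : X) 1 → sphere (0 : Y) 1),
    Isometry f → Function.Surjective f → ExtendsLinearly f

end Vale.Agent.Lib.P084
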