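import Mathlib

/-!
# Positively homogeneous extension of a map between unit spheres

Helper file for problem P084 (Tingley's problem).
-/

namespace Vale.Agent.Lib.P084

open Metric Set Function TopologicalSpace

universe u v

variable {X : Type u} {Y : Type v} [NormedAddCommGroup X] [NormedSpace ℝ X]
  [NormedAddCommGroup Y] [NormedSpace ℝ Y]

/-- The radial projection of a nonzero vector to the unit sphere. -/
noncomputable def normalize (x : X) (h : x ≠ 0) : sphere (0 : X) 1 :=
  ⟨‖x‖⁻¹ • x, by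
    rw [mem_sphere_zero_iff_norm, norm_smul, norm_inv, norm_norm,
      inv_mul_cancel₀ (norm_ne_zero_iff.mpr h)]⟩

theorem coe_normalize (x : X) (h : x ≠ 0) : (normalize x h : X) = ‖x‖⁻¹ • x := rfl

open Classical in
/-- The positively homogeneous extension of a map between unit spheres. -/
noncomputable def homExt (f : sphere (0 : X) 1 → sphere (0 : Y) 1) (x : X) : Y :=
  if h : x = 0 then 0 else ‖x‖ • (f (normalize x h) : Y)

theorem homExt_zero (f : sphere (0 : X) 1 → sphere (0 : Y) 1) : homExt f 0 = 0 := by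
  simp [homExt]

theorem homExt_of_ne (f : sphere (0 : X) 1 → sphere (0 : Y) 1) (x : X) (h : x ≠ 0) :
    homExt f x = ‖x‖ • (f (normalize x h) : Y) := by
  simp [homExt, h]

theorem norm_coe_sphere (y : sphere (0 : Y) 1) : ‖(y : Y)‖ = 1 := by
  have := y.2
  rwa [mem_sphere_zero_iff_norm] at this

theorem norm_homExt (f : sphere (0 : X) 1 → sphere (0 : Y) 1) (x : X) :
    ‖homExt f x‖ = ‖x‖ := by
  by_cases h : x = 0
  · simp [h, homExt_zero]
  · rw [homExt_of_ne f x h, norm_smul, norm_norm, norm_coe_sphere, mul_one]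

theorem normalize_coe (x : sphere (0 : X) 1) (h : (x : X) ≠ 0) : normalize (x : X) h = x := by
  apply Subtype.ext
  rw [coe_normalize, norm_coe_sphere, inv_one, one_smul]

theorem coe_sphere_ne_zero (x : sphere (0 : X) 1) : (x : X) ≠ 0 := by
  intro h
  have := norm_coe_sphere x
  rw [h, norm_zero] at this
  exact zero_ne_one this

theorem homExt_coe (f : sphere (0 : X) 1 → sphere (0 : Y) 1) (x : sphere (0 : X) 1) :
    homExt f (x : X) = (f x : Y) := by
  rw [homExt_of_ne f x (coe_sphere_ne_zero x), normalize_coe, norm_coe_sphere, one_smul]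

theorem normalize_smul (x : X) (h : x ≠ 0) (t : ℝ) (ht : 0 < t) (h' : t • x ≠ 0) :
    normalize (t • x) h' = normalize x h := by
  apply Subtype.ext
  rw [coe_normalize, coe_normalize, norm_smul, Real.norm_of_nonneg ht.le, smul_smul, mul_inv,
    mul_comm t⁻¹, mul_assoc, inv_mul_cancel₀ ht.ne', mul_one]

theorem homExt_smul (f : sphere (0 : X) 1 → sphere (0 : Y) 1) (t : ℝ) (ht : 0 ≤ t) (x : X) :
    homExt f (t • x) = t • homExt f x := by
  rcases ht.eq_or_lt with h0 | hpos
  · subst h0
    simp [homExt_zero]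
  by_cases h : x = 0
  · simp [h, homExt_zero]
  have h' : t • x ≠ 0 := smul_ne_zero hpos.ne' h
  rw [homExt_of_ne f _ h', homExt_of_ne f x h, normalize_smul x h t hpos h', norm_smul,
    Real.norm_of_nonneg ht, smul_smul]

theorem homExt_eq_smul_coe (f : sphere (0 : X) 1 → sphere (0 : Y) 1) (x : X) (h : x ≠ 0) :
    homExt f x = ‖x‖ • homExt f (normalize x h : X) := by
  rw [homExt_coe, homExt_of_ne f x h]

/-- If `g` is a left inverse of `f`, then the extension of `g` is a left inverse of
the extension of `f`. -/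
theorem homExt_leftInverse (f : sphere (0 : X) 1 → sphere (0 : Y) 1)
    (g : sphere (0 : Y) 1 → sphere (0 : X) 1) (hgf : LeftInverse g f) :
    LeftInverse (homExt g) (homExt f) := by
  intro x
  by_cases h : x = 0
  · simp [h, homExt_zero]
  rw [homExt_of_ne f x h, homExt_smul g _ (norm_nonneg x), homExt_coe, hgf, coe_normalize,
    smul_smul, mul_inv_cancel₀ (norm_ne_zero_iff.mpr h), one_smul]

theorem norm_sub_coe_sphere_of_isometry (f : sphere (0 : X) 1 → sphere (0 : Y) 1)
    (hf : Isometry f) (a b : sphere (0 : X) 1) :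
    ‖(f a : Y) - (f b : Y)‖ = ‖(a : X) - (b : X)‖ := by
  have := hf.dist_eq a b
  rwa [Subtype.dist_eq, Subtype.dist_eq, dist_eq_norm, dist_eq_norm] at this

/-- The homogeneous extension of an isometry between unit spheres is `3`-Lipschitz. -/
theorem norm_homExt_sub_le (f : sphere (0 : X) 1 → sphere (0 : Y) 1) (hf : Isometry f)
    (x x' : X) : ‖homExt f x - homExt f x'‖ ≤ 3 * ‖x - x'‖ := by
  by_cases h : x = 0
  · subst h
    rw [homExt_zero, zero_sub, zero_sub, norm_neg, norm_neg, norm_homExt]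
    nlinarith [norm_nonneg x']
  by_cases h' : x' = 0
  · subst h'
    rw [homExt_zero, sub_zero, sub_zero, norm_homExt]
    nlinarith [norm_nonneg x]
  have hx : 0 < ‖x‖ := norm_pos_iff.mpr h
  have hx' : 0 < ‖x'‖ := norm_pos_iff.mpr h'
  rw [homExt_of_ne f x h, homExt_of_ne f x' h']
  set u := normalize x h with hu
  set u' := normalize x' h' with hu'
  have e1 : ‖x‖ • (f u : Y) - ‖x'‖ • (f u' : Y)
      = ‖x‖ • ((f u : Y) - (f u' : Y)) + (‖x‖ - ‖x'‖) • (f u' : Y) := by
    rw [smul_sub, sub_smul]; abel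
  have e2 : ‖x‖ • ((u : X) - (u' : X)) = (x - x') + ((‖x'‖ - ‖x‖) * ‖x'‖⁻¹) • x' := by
    rw [hu, hu', coe_normalize, coe_normalize, smul_sub, smul_smul, smul_smul,
      mul_inv_cancel₀ hx.ne', one_smul, sub_mul, mul_inv_cancel₀ hx'.ne', sub_smul, one_smul]
    abel
  have b1 : ‖‖x‖ • ((f u : Y) - (f u' : Y))‖ ≤ 2 * ‖x - x'‖ := by
    rw [norm_smul, norm_norm, norm_sub_coe_sphere_of_isometry f hf, ← norm_norm x,
      ← norm_smul, e2]
    refine (norm_add_le _ _).trans ?_
    rw [norm_smul, norm_mul, norm_inv, norm_norm, mul_assoc, inv_mul_cancel₀ hx'.ne', mul_one,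
      Real.norm_eq_abs]
    have := abs_norm_sub_norm_le x' x
    rw [norm_sub_rev] at this
    linarith
  have b2 : ‖(‖x‖ - ‖x'‖) • (f u' : Y)‖ ≤ ‖x - x'‖ := by
    rw [norm_smul, norm_coe_sphere, mul_one, Real.norm_eq_abs]
    exact abs_norm_sub_norm_le x x'
  rw [e1]
  refine (norm_add_le _ _).trans ?_
  linarith

theorem continuous_homExt (f : sphere (0 : X) 1 → sphere (0 : Y) 1) (hf : Isometry f) :
    Continuous (homExt f) := by
  have : LipschitzWith 3 (homExt f) := by
    refine LipschitzWith.of_dist_le_mul ?_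
    intro x x'
    rw [dist_eq_norm, dist_eq_norm]
    exact norm_homExt_sub_le f hf x x'
  exact this.continuous

end Vale.Agent.Lib.P084
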