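import Vale.Agent.Lib.P084.HomExt

/-!
# Separable closed subspaces invariant under a pair of continuous maps

Helper file for problem P084 (Tingley's problem).
-/

namespace Vale.Agent.Lib.P084

open Metric Set Function TopologicalSpace

universe u v

variable {X : Type u} {Y : Type v} [NormedAddCommGroup X] [NormedSpace ℝ X]
  [NormedAddCommGroup Y] [NormedSpace ℝ Y]

/-- An increasing sequence of subspaces of `X`, closing off under `G ∘ span ∘ F`. -/
noncomputable def seqP (F : X → Y) (G : Y → X) (s : Set X) : ℕ → Submodule ℝ X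
  | 0 => Submodule.span ℝ s
  | n + 1 => Submodule.span ℝ ((seqP F G s n : Set X) ∪
      G '' (Submodule.span ℝ (F '' (seqP F G s n : Set X)) : Set Y))

/-- The corresponding sequence of subspaces of `Y`. -/
noncomputable def seqQ (F : X → Y) (G : Y → X) (s : Set X) (n : ℕ) : Submodule ℝ Y :=
  Submodule.span ℝ (F '' (seqP F G s n : Set X))

theorem seqP_le_succ (F : X → Y) (G : Y → X) (s : Set X) (n : ℕ) :
    seqP F G s n ≤ seqP F G s (n + 1) := by
  intro x hx
  exact Submodule.subset_span (Or.inl hx)

theorem seqP_mono (F : X → Y) (G : Y → X) (s : Set X) : Monotone (seqP F G s) :=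
  monotone_nat_of_le_succ (seqP_le_succ F G s)

theorem seqQ_mono (F : X → Y) (G : Y → X) (s : Set X) : Monotone (seqQ F G s) := by
  intro m n hmn
  exact Submodule.span_mono (image_mono (seqP_mono F G s hmn))

theorem map_mem_seqQ (F : X → Y) (G : Y → X) (s : Set X) (n : ℕ) (x : X)
    (hx : x ∈ seqP F G s n) : F x ∈ seqQ F G s n :=
  Submodule.subset_span (mem_image_of_mem F hx)

theorem map_mem_seqP (F : X → Y) (G : Y → X) (s : Set X) (n : ℕ) (y : Y)
    (hy : y ∈ seqQ F G s n) : G y ∈ seqP F G s (n + 1) :=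
  Submodule.subset_span (Or.inr (mem_image_of_mem G hy))

theorem isSeparable_seqP (F : X → Y) (G : Y → X) (hF : Continuous F) (hG : Continuous G)
    (s : Set X) (hs : IsSeparable s) (n : ℕ) : IsSeparable (seqP F G s n : Set X) := by
  induction n with
  | zero => exact hs.span
  | succ n ih =>
    exact (ih.union (((ih.image hF).span).image hG)).span

theorem isSeparable_seqQ (F : X → Y) (G : Y → X) (hF : Continuous F) (hG : Continuous G)
    (s : Set X) (hs : IsSeparable s) (n : ℕ) : IsSeparable (seqQ F G s n : Set Y) :=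
  ((isSeparable_seqP F G hF hG s hs n).image hF).span

/-- Closing-off: for continuous `F : X → Y` and `G : Y → X` and a separable set `s`, there are
closed separable subspaces `P ⊇ s` of `X` and `Q` of `Y` with `F '' P ⊆ Q` and `G '' Q ⊆ P`. -/
theorem exists_separable_invariant (F : X → Y) (G : Y → X) (hF : Continuous F)
    (hG : Continuous G) (s : Set X) (hs : IsSeparable s) :
    ∃ (P : Submodule ℝ X) (Q : Submodule ℝ Y),
      IsClosed (P : Set X) ∧ IsSeparable (P : Set X) ∧
      IsClosed (Q : Set Y) ∧ IsSeparable (Q : Set Y) ∧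
      s ⊆ (P : Set X) ∧ (∀ x ∈ P, F x ∈ Q) ∧ (∀ y ∈ Q, G y ∈ P) := by
  have hdP : Directed (· ≤ ·) (seqP F G s) := (seqP_mono F G s).directed_le
  have hdQ : Directed (· ≤ ·) (seqQ F G s) := (seqQ_mono F G s).directed_le
  have hP : ((⨆ n, seqP F G s n : Submodule ℝ X) : Set X) = ⋃ n, (seqP F G s n : Set X) :=
    Submodule.coe_iSup_of_directed _ hdP
  have hQ : ((⨆ n, seqQ F G s n : Submodule ℝ Y) : Set Y) = ⋃ n, (seqQ F G s n : Set Y) :=
    Submodule.coe_iSup_of_directed _ hdQ
  refine ⟨(⨆ n, seqP F G s n).topologicalClosure, (⨆ n, seqQ F G s n).topologicalClosure,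
    Submodule.isClosed_topologicalClosure _, ?_, Submodule.isClosed_topologicalClosure _, ?_,
    ?_, ?_, ?_⟩
  · rw [Submodule.topologicalClosure_coe, hP]
    exact (IsSeparable.iUnion (fun n => isSeparable_seqP F G hF hG s hs n)).closure
  · rw [Submodule.topologicalClosure_coe, hQ]
    exact (IsSeparable.iUnion (fun n => isSeparable_seqQ F G hF hG s hs n)).closure
  · intro x hx
    apply Submodule.le_topologicalClosure
    exact (le_iSup (seqP F G s) 0) (Submodule.subset_span hx)
  · intro x hx
    have hx' : x ∈ closure (⋃ n, (seqP F G s n : Set X)) := by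
      rw [← hP, ← Submodule.topologicalClosure_coe]; exact hx
    have h1 : F x ∈ closure (F '' ⋃ n, (seqP F G s n : Set X)) :=
      image_closure_subset_closure_image hF (mem_image_of_mem F hx')
    have h2 : F '' (⋃ n, (seqP F G s n : Set X)) ⊆ ⋃ n, (seqQ F G s n : Set Y) := by
      rintro _ ⟨z, hz, rfl⟩
      obtain ⟨n, hn⟩ := mem_iUnion.mp hz
      exact mem_iUnion.mpr ⟨n, map_mem_seqQ F G s n z hn⟩
    have h3 := closure_mono h2 h1
    rw [← hQ, ← Submodule.topologicalClosure_coe] at h3
    exact h3
  · intro y hy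
    have hy' : y ∈ closure (⋃ n, (seqQ F G s n : Set Y)) := by
      rw [← hQ, ← Submodule.topologicalClosure_coe]; exact hy
    have h1 : G y ∈ closure (G '' ⋃ n, (seqQ F G s n : Set Y)) :=
      image_closure_subset_closure_image hG (mem_image_of_mem G hy')
    have h2 : G '' (⋃ n, (seqQ F G s n : Set Y)) ⊆ ⋃ n, (seqP F G s n : Set X) := by
      rintro _ ⟨z, hz, rfl⟩
      obtain ⟨n, hn⟩ := mem_iUnion.mp hz
      exact mem_iUnion.mpr ⟨n + 1, map_mem_seqP F G s n z hn⟩
    have h3 := closure_mono h2 h1
    rw [← hP, ← Submodule.topologicalClosure_coe] at h3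
    exact h3

end Vale.Agent.Lib.P084
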