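import Vale.Agent.Lib.P084.Defs
import Vale.Agent.Lib.P084.Separable

/-!
# Restricting sphere isometries to invariant subspaces

Helper file for problem P084 (Tingley's problem).
-/

namespace Vale.Agent.Lib.P084

open Metric Set Function TopologicalSpace

universe u v

variable {X : Type u} {Y : Type v} [NormedAddCommGroup X] [NormedSpace ℝ X]
  [NormedAddCommGroup Y] [NormedSpace ℝ Y]

/-- A unit vector of a subspace, seen as a unit vector of the ambient space. -/
def toSphere (P : Submodule ℝ X) (x : sphere (0 : P) 1) : sphere (0 : X) 1 :=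
  ⟨((x : P) : X), by
    rw [mem_sphere_zero_iff_norm, ← Submodule.coe_norm]
    exact norm_coe_sphere x⟩

theorem coe_toSphere (P : Submodule ℝ X) (x : sphere (0 : P) 1) :
    (toSphere P x : X) = ((x : P) : X) := rfl

/-- The restriction of a sphere map to subspaces `P`, `Q` such that the homogeneous extension
maps `P` into `Q`. -/
def restrictSphere (f : sphere (0 : X) 1 → sphere (0 : Y) 1) (P : Submodule ℝ X)
    (Q : Submodule ℝ Y) (hPQ : ∀ x ∈ P, homExt f x ∈ Q) :
    sphere (0 : P) 1 → sphere (0 : Q) 1 :=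
  fun x => ⟨⟨(f (toSphere P x) : Y), by
      rw [← homExt_coe]
      exact hPQ _ (x : P).2⟩, by
    rw [mem_sphere_zero_iff_norm, Submodule.coe_norm]
    exact norm_coe_sphere _⟩

theorem coe_restrictSphere (f : sphere (0 : X) 1 → sphere (0 : Y) 1) (P : Submodule ℝ X)
    (Q : Submodule ℝ Y) (hPQ : ∀ x ∈ P, homExt f x ∈ Q) (x : sphere (0 : P) 1) :
    (((restrictSphere f P Q hPQ x : sphere (0 : Q) 1) : Q) : Y) = (f (toSphere P x) : Y) := rfl

theorem isometry_restrictSphere (f : sphere (0 : X) 1 → sphere (0 : Y) 1) (hf : Isometry f)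
    (P : Submodule ℝ X) (Q : Submodule ℝ Y) (hPQ : ∀ x ∈ P, homExt f x ∈ Q) :
    Isometry (restrictSphere f P Q hPQ) := by
  refine Isometry.of_dist_eq (fun x x' => ?_)
  exact hf.dist_eq (toSphere P x) (toSphere P x')

theorem restrictSphere_rightInverse (f : sphere (0 : X) 1 → sphere (0 : Y) 1)
    (g : sphere (0 : Y) 1 → sphere (0 : X) 1) (hfg : ∀ y, f (g y) = y)
    (P : Submodule ℝ X) (Q : Submodule ℝ Y) (hPQ : ∀ x ∈ P, homExt f x ∈ Q)
    (hQP : ∀ y ∈ Q, homExt g y ∈ P) (y : sphere (0 : Q) 1) :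
    restrictSphere f P Q hPQ (restrictSphere g Q P hQP y) = y := by
  apply Subtype.ext
  apply Subtype.ext
  rw [coe_restrictSphere]
  have : toSphere P (restrictSphere g Q P hQP y) = g (toSphere Q y) := Subtype.ext rfl
  rw [this, hfg]
  rfl

theorem surjective_restrictSphere (f : sphere (0 : X) 1 → sphere (0 : Y) 1)
    (g : sphere (0 : Y) 1 → sphere (0 : X) 1) (hfg : ∀ y, f (g y) = y)
    (P : Submodule ℝ X) (Q : Submodule ℝ Y) (hPQ : ∀ x ∈ P, homExt f x ∈ Q)
    (hQP : ∀ y ∈ Q, homExt g y ∈ P) : Surjective (restrictSphere f P Q hPQ) :=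
  fun y => ⟨restrictSphere g Q P hQP y, restrictSphere_rightInverse f g hfg P Q hPQ hQP y⟩

/-- A linear isometry of `P` onto `Q` extending the restricted sphere map agrees with the
homogeneous extension on all of `P`. -/
theorem eq_homExt_of_extends (f : sphere (0 : X) 1 → sphere (0 : Y) 1) (P : Submodule ℝ X)
    (Q : Submodule ℝ Y) (hPQ : ∀ x ∈ P, homExt f x ∈ Q) (T : P ≃ₗᵢ[ℝ] Q)
    (hT : ∀ x : sphere (0 : P) 1, T (x : P) = (restrictSphere f P Q hPQ x : Q))
    (x : X) (hx : x ∈ P) : ((T ⟨x, hx⟩ : Q) : Y) = homExt f x := by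
  by_cases h : x = 0
  · subst h
    have : (⟨0, hx⟩ : P) = 0 := rfl
    rw [this, map_zero, homExt_zero]
    rfl
  have hne : (⟨x, hx⟩ : P) ≠ 0 := by
    intro h0
    exact h (congrArg Subtype.val h0)
  have e1 : (⟨x, hx⟩ : P) = ‖x‖ • ((normalize (⟨x, hx⟩ : P) hne : sphere (0 : P) 1) : P) := by
    apply Subtype.ext
    rw [coe_normalize, Submodule.coe_smul, Submodule.coe_smul, Submodule.coe_norm, smul_smul,
      mul_inv_cancel₀ (norm_ne_zero_iff.mpr h), one_smul]
  have e2 : toSphere P (normalize (⟨x, hx⟩ : P) hne) = normalize x h := Subtype.ext rfl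
  rw [e1, map_smul, hT, Submodule.coe_smul, coe_restrictSphere, e2, homExt_of_ne f x h]

/-- If the homogeneous extension of a bijective sphere map is additive, the map extends
linearly. -/
theorem extendsLinearly_of_add (f : sphere (0 : X) 1 → sphere (0 : Y) 1)
    (g : sphere (0 : Y) 1 → sphere (0 : X) 1) (hfg : ∀ y, f (g y) = y)
    (hadd : ∀ x x', homExt f (x + x') = homExt f x + homExt f x') : ExtendsLinearly f := by
  have hneg : ∀ x, homExt f (-x) = -homExt f x := by
    intro x
    have := hadd x (-x)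
    rw [add_neg_cancel, homExt_zero] at this
    exact (neg_eq_of_add_eq_zero_right this.symm).symm
  have hsmul : ∀ (c : ℝ) (x : X), homExt f (c • x) = c • homExt f x := by
    intro c x
    rcases le_total 0 c with hc | hc
    · exact homExt_smul f c hc x
    · have h1 : c • x = (-c) • (-x) := by rw [smul_neg, neg_smul, neg_neg]
      rw [h1, homExt_smul f (-c) (neg_nonneg.mpr hc), hneg, smul_neg, neg_smul, neg_neg]
  let L : X →ₗ[ℝ] Y :=
    { toFun := homExt f
      map_add' := hadd
      map_smul' := hsmul }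
  let Li : X →ₗᵢ[ℝ] Y := ⟨L, norm_homExt f⟩
  have hsurj : Surjective Li := by
    intro y
    exact ⟨homExt g y, homExt_leftInverse g f hfg y⟩
  refine ⟨LinearIsometryEquiv.ofSurjective Li hsurj, ?_⟩
  intro x
  exact homExt_coe f x

/-- Core statement: a surjective isometry `f` between unit spheres extends linearly as soon as
its restrictions to all pairs of closed separable subspaces `P`, `Q` with `f(S_P) = S_Q`
extend linearly. -/
theorem extendsLinearly_of_separable (f : sphere (0 : X) 1 → sphere (0 : Y) 1)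
    (hf : Isometry f) (hs : Surjective f)
    (h : ∀ (P : Submodule ℝ X) (Q : Submodule ℝ Y), IsClosed (P : Set X) →
      IsSeparable (P : Set X) → IsClosed (Q : Set Y) → IsSeparable (Q : Set Y) →
      ∀ f' : sphere (0 : P) 1 → sphere (0 : Q) 1, Isometry f' → Surjective f' →
        (∀ x : sphere (0 : P) 1, (((f' x : sphere (0 : Q) 1) : Q) : Y) = (f (toSphere P x) : Y)) →
        ExtendsLinearly f') :
    ExtendsLinearly f := by
  have hbij : Bijective f := ⟨hf.injective, hs⟩
  obtain ⟨g, hgf, hfg⟩ := bijective_iff_has_inverse.mp hbij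
  have hg : Isometry g := by
    refine Isometry.of_dist_eq (fun y y' => ?_)
    have := hf.dist_eq (g y) (g y')
    rw [hfg, hfg] at this
    exact this.symm
  have hF := continuous_homExt f hf
  have hG := continuous_homExt g hg
  refine extendsLinearly_of_add f g hfg ?_
  intro x x'
  have hsep : IsSeparable ({x, x'} : Set X) := (Set.toFinite {x, x'}).isSeparable
  obtain ⟨P, Q, hPc, hPs, hQc, hQs, hsub, hPQ, hQP⟩ :=
    exists_separable_invariant (homExt f) (homExt g) hF hG {x, x'} hsep
  have hxP : x ∈ P := hsub (by simp)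
  have hx'P : x' ∈ P := hsub (by simp)
  obtain ⟨T, hT⟩ := h P Q hPc hPs hQc hQs (restrictSphere f P Q hPQ)
    (isometry_restrictSphere f hf P Q hPQ)
    (surjective_restrictSphere f g hfg P Q hPQ hQP) (fun _ => rfl)
  have key := eq_homExt_of_extends f P Q hPQ T hT
  rw [← key x hxP, ← key x' hx'P, ← key (x + x') (P.add_mem hxP hx'P)]
  have : (⟨x + x', P.add_mem hxP hx'P⟩ : P) = ⟨x, hxP⟩ + ⟨x', hx'P⟩ := rfl
  rw [this, map_add]
  rfl

end Vale.Agent.Lib.P084
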